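import Vale.Agent.P025.H641.EveryGen

open P025H641

universe u v w

/-- Sections of `Gal(maxUnr k K / K) → Gal(constClosure k K / k)` for sufficiently ramified
extensions `K` of an arbitrary function field `E` of one variable over a `p`-adic field `k`. -/
theorem Vale.Agent.Results.P025.EveryCurve.result :
    ∀ (p : ℕ) [Fact p.Prime] (k : Type u) (E : Type v) [Field k] [Algebra ℚ_[p] k]
      [FiniteDimensional ℚ_[p] k] [Field E] [Algebra k E], IsFunctionField k E →
      -- all `p`-adic fields: ramification divisible by `p` over the zeros and poles of `S`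
      (∀ S₀ : Finset E, ∃ S : Finset E, (∀ g ∈ S, g ≠ 0) ∧
        ∀ (K : Type w) [Field K] [Algebra k K] [Algebra E K] [IsScalarTower k E K]
          (s : Section k K), IsRamifiedOver p k K S →
            ∃ V : ValuationSubring E, IsRatPlace k E V ∧ LooksLikePlace p s S₀ V) ∧
      -- no sections if there is no rational place
      ((¬ ∃ V : ValuationSubring E, IsRatPlace k E V) →
        ∃ S : Finset E, (∀ g ∈ S, g ≠ 0) ∧
          ∀ (K : Type w) [Field K] [Algebra k K] [Algebra E K] [IsScalarTower k E K],
            IsRamifiedOver p k K S → IsEmpty (Section k K)) ∧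
      -- `p`-adic fields with the `p`-th roots of unity: values of `S` divisible by `p`
      (∀ ζ : k, IsPrimitiveRoot ζ p → ∀ S₀ : Finset E, ∃ S : Finset E,
        ∀ (K : Type w) [Field K] [Algebra k K] [Algebra E K] [IsScalarTower k E K]
          (s : Section k K), (∀ f ∈ S, IsDivisible p k (algebraMap E K f)) →
            ∃ V : ValuationSubring E, IsRatPlace k E V ∧ LooksLikePlace p s S₀ V) := by
  intro p _ k E _ _ _ _ _ hE
  refine ⟨fun S₀ => every_gen hE S₀, fun hno => ?_, fun ζ hζ S₀ => every_curve hζ hE S₀⟩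
  obtain ⟨S, hS, h⟩ := every_gen.{u, v, w} (p := p) hE ∅
  refine ⟨S, hS, fun K _ _ _ _ hram => ⟨fun s => ?_⟩⟩
  obtain ⟨V, hV, -⟩ := h K s hram
  exact hno ⟨V, hV⟩
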