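import Vale.Agent.P025.H16.NonNorm
import Vale.Agent.P025.H461.Crit
import Vale.Agent.P025.H461.CurveAll
import Vale.Agent.P025.H511.Unram

open P025H641 P025H16 Polynomial

universe u v w z

/-- The Steinberg relation mod `n` for sections of
`Gal(maxUnr k K / K) → Gal(constClosure k K / k)`; a criterion for an element of `k` to be a norm
from a Galois extension `k₁ / k` if there is such a section; the absence of sections for all
fields `K` containing a solution of `b y ^ n = N(g(x))`, where `N` is the norm of `k₁ / k` and `b`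
is not a norm from `k₁`, or of `a x ^ n + b y ^ n = 1`, where `b` is not a norm from
`k(a ^ (1 / n))`. -/
theorem Vale.Agent.Results.P025.NormCriterion.result :
    -- the Steinberg relation for sections
    (∀ (n : ℕ), 0 < n → ∀ (k : Type u) (K : Type v) [Field k] [CharZero k] [Field K]
      [Algebra k K] (ζ : k), IsPrimitiveRoot ζ n → SteinbergRelation n k K) ∧
    -- the norm criterion
    (∀ (k : Type u) (k₁ : Type w) (K : Type v) (K₁ : Type z) [Field k] [CharZero k] [Field k₁]
      [Field K] [Field K₁] [Algebra k k₁] [Algebra k K] [Algebra K K₁] [Algebra k₁ K₁]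
      [Algebra k K₁] [IsScalarTower k K K₁] [IsScalarTower k k₁ K₁] [FiniteDimensional k k₁]
      [IsGalois k k₁], IntermediateField.adjoin K (Set.range (algebraMap k₁ K₁)) = ⊤ →
      Section k K → NormCriterion k k₁ K K₁) ∧
    -- all curves over `b y ^ n = f(x)`, if `f` is the norm of `g` in `k₁[X]` and `b` is no norm
    (∀ (k : Type u) (k₁ : Type w) (K : Type v) [Field k] [CharZero k] [Field k₁] [Field K]
      [Algebra k k₁] [Algebra k K] [FiniteDimensional k k₁] [IsGalois k k₁],
      OverNormCurve k k₁ K → IsEmpty (Section k K)) ∧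
    -- all curves over `a x ^ n + b y ^ n = 1`, if the symbol of `a` and `b` is not trivial
    (∀ (n : ℕ), 0 < n → ∀ (k : Type u) (K : Type v) [Field k] [CharZero k] [Field K]
      [Algebra k K] (ζ : k), IsPrimitiveRoot ζ n → OverFermatCurve n k K →
      IsEmpty (Section k K)) ∧
    -- `p`-adic fields: existence of elements which are no norms
    (∀ (p : ℕ) [Fact p.Prime] (k : Type u) [Field k] [Algebra ℚ_[p] k]
      [FiniteDimensional ℚ_[p] k],
      (∀ n : ℕ, 0 < n → ∀ ζ : k, IsPrimitiveRoot ζ n → HasNonNorms n k) ∧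
      ∀ n : ℕ, 2 ≤ n → HasCyclicNonNorm n k) := by
  refine ⟨?_, ?_, ?_, ?_, ?_⟩
  · intro n hn k K _ _ _ _ ζ hζ s g hg0 hg1 h1 h2
    exact steinberg_all_n hn hζ s g hg0 hg1 h1 h2
  · intro k k₁ K K₁ _ _ _ _ _ _ _ _ _ _ _ _ _ _ hgen s I _ σ g h b c m hm hh hg hdiv hc
    exact P025H461.norm_criterion hgen s σ g h b c m hm hh hg hdiv hc
  · rintro k k₁ K _ _ _ _ _ _ _ _ ⟨n, b, f, g, x, y, hn, hb, hf, hcop, hpar, hy, h⟩
    refine ⟨fun s => ?_⟩
    obtain ⟨z, hz⟩ := P025H461.norm_curve_section_all n hn s b f g hf hcop hpar x y hy h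
    exact hb z hz
  · rintro n hn k K _ _ _ _ ζ hζ ⟨a, b, x, y, ha0, hb0, hab, hy, h⟩
    exact ⟨fun s => hab (fermat_section_n hn hζ s a b ha0 hb0 x y hy h)⟩
  · intro p _ k _ _ _
    exact ⟨fun n hn ζ hζ => hasNonNorms (p := p) hn hζ,
      fun n hn => P025H511.exists_unram (p := p) n hn⟩
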