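import Vale.Agent.P025.H641.OFinal

open P025H641

universe u v w

/-- Sections of the Galois group of the maximal extension with ramification indices dividing `p`,
unramified over a countable set of places, are geometric; a section of the fundamental group of
the curve is geometric if and only if it lifts to this group, and if and only if it lifts to
covers with ramification divisible by `p` over arbitrary finite sets of places. -/
theorem Vale.Agent.Results.P025.OrbifoldSections.result :
    ∀ (p : ℕ) [Fact p.Prime] (k : Type u) (E : Type v) [Field k] [Algebra ℚ_[p] k]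
      [FiniteDimensional ℚ_[p] k] [Field E] [Algebra k E], IsFunctionField k E →
      (∀ T : Set (ValuationSubring E), T.Countable → ∀ s : SecOf k (maxOrb p k T),
        s.IsGeometric) ∧
      ∀ s : Section k E,
        (s.IsGeometric ↔ ∃ s₁ : SecOf k (maxOrb p k ∅), s₁.Lifts s) ∧
        (s.IsGeometric ↔ ∀ S : Finset E, (∀ g ∈ S, g ≠ 0) →
          ∃ K : IntermediateField E (AlgebraicClosure E), FiniteDimensional E K ∧
            IsRamifiedOver p k K S ∧ ∃ s' : Section k K, s.LiftsTo s') ∧
        ((∀ S : Finset E, (∀ g ∈ S, g ≠ 0) →
          ∃ (K : Type w) (_ : Field K) (_ : Algebra k K) (_ : Algebra E K)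
            (_ : IsScalarTower k E K) (s' : Section k K),
            IsRamifiedOver p k K S ∧ s.LiftsTo s') → s.IsGeometric) := by
  intro p _ k E _ _ _ _ _ hE
  refine ⟨fun T hT s => secOf_isGeometric hE hT s, fun s => ⟨?_, ?_, ?_⟩⟩
  · exact isGeometric_iff_orb hE s
  · exact isGeometric_iff_ram hE s
  · exact fun h => isGeometric_of_lifts hE s h
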