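import Vale.Agent.P025.H641.Final

open P025H641

universe u v w

/-- Sections of `Gal(maxUnr k K / K) → Gal(constClosure k K / k)` for all `p`-adic fields `k`
containing the `p`-th roots of unity, and functions with divisors divisible by `p`. -/
theorem Vale.Agent.Results.P025.PadicShadow.result :
    ∀ (p : ℕ) [Fact p.Prime] (k : Type u) (K : Type v) [Field k] [Algebra ℚ_[p] k]
      [FiniteDimensional ℚ_[p] k] [Field K] [Algebra k K] (ζ : k), IsPrimitiveRoot ζ p →
      -- sections look like rational points
      SectionsLookLikePoints.{u, v, w} p k K ∧
      -- sections force rational places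
      SectionGivesPlace.{u, v, w} p k K := by
  intro p _ k K _ _ _ _ _ ζ hζ
  exact ⟨look_final hζ, place_final hζ⟩
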